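import Vale.Agent.P305.R2.H434.Spec
import Mathlib.Tactic

/-! # Quadrilaterals with disjoint opposite sides: the turning number is odd (module A) -/

set_option autoImplicit false

namespace Vale.Agent.P305.H336

open Vale.Agent.P305.H434

/-- a nonnegative combination of upper vectors -/
lemma up_comb {u v : ℝ × ℝ} (hu : Up u) (hv : Up v) {a b : ℝ} (ha : 0 ≤ a) (hb : 0 ≤ b)
    (hab : 0 < a + b) : Up (a • u + b • v) := by
  rcases ha.eq_or_lt with rfl | ha
  · rw [zero_smul, zero_add]
    exact up_smul (by linarith) hv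
  rcases hb.eq_or_lt with rfl | hb
  · rw [zero_smul, add_zero]
    exact up_smul (by linarith) hu
  exact up_add (up_smul ha hu) (up_smul hb hv)

/-- a point of the line `A B` that is lexicographically between `A` and `B` is on the segment -/
lemma mem_segment_of {A B X : ℝ × ℝ} (h1 : Up (X - A)) (h2 : Up (B - X))
    (h : det (B - A) (X - A) = 0) : X ∈ segment ℝ A B := by
  unfold det at h
  simp only [Prod.fst_sub, Prod.snd_sub] at h
  rw [segment_eq_image]
  have hAB : Up (B - A) := by
    have := up_add h2 h1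
    rwa [sub_add_sub_cancel] at this
  unfold Up at h1 h2 hAB
  simp only [Prod.fst_sub, Prod.snd_sub] at h1 h2 hAB
  by_cases h0 : B.2 - A.2 = 0
  · have hx : X.2 - A.2 = 0 := by
      rcases h1 with k | ⟨k, -⟩ <;> rcases h2 with l | ⟨l, -⟩ <;> linarith
    have h1' : 0 < X.1 - A.1 := by rcases h1 with k | ⟨-, k⟩ <;> linarith
    have h2' : 0 < B.1 - X.1 := by rcases h2 with k | ⟨k', k⟩ <;> linarith
    have h3 : 0 < B.1 - A.1 := by linarith
    refine ⟨(X.1 - A.1) / (B.1 - A.1), ⟨by positivity, ?_⟩, ?_⟩
    · rw [div_le_one h3]; linarith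
    · ext
      · simp only [Prod.fst_add, Prod.smul_fst, smul_eq_mul]
        field_simp
        ring
      · simp only [Prod.snd_add, Prod.smul_snd, smul_eq_mul]
        have hB : B.2 = A.2 := by linarith
        have hX : X.2 = A.2 := by linarith
        rw [hB, hX]; ring
  · have h3 : 0 < B.2 - A.2 := by
      rcases hAB with k | ⟨k, -⟩
      · exact k
      · exact absurd k h0
    have h1' : 0 ≤ X.2 - A.2 := by rcases h1 with k | ⟨k, -⟩ <;> linarith
    have h2' : 0 ≤ B.2 - X.2 := by rcases h2 with k | ⟨k, -⟩ <;> linarith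
    refine ⟨(X.2 - A.2) / (B.2 - A.2), ⟨by positivity, ?_⟩, ?_⟩
    · rw [div_le_one h3]; linarith
    · ext
      · simp only [Prod.fst_add, Prod.smul_fst, smul_eq_mul]
        field_simp
        linarith
      · simp only [Prod.snd_add, Prod.smul_snd, smul_eq_mul]
        field_simp
        ring

/-- two disjoint segments, the second one lies lexicographically between the ends of the first
one: its ends are on the same side of the first one -/
lemma sameSide {A B C D : ℝ × ℝ} (hd : Disjoint (segment ℝ A B) (segment ℝ C D))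
    (hAC : Up (C - A)) (hCB : Up (B - C)) (hAD : Up (D - A)) (hDB : Up (B - D)) :
    0 < det (B - A) (C - A) * det (B - A) (D - A) := by
  by_contra hcon
  rw [not_lt] at hcon
  set p := det (B - A) (C - A) with hp
  set q := det (B - A) (D - A) with hq
  -- a point of `[C, D]` on the line
  obtain ⟨a, b, ha, hb, hab, h0⟩ : ∃ a b : ℝ, 0 ≤ a ∧ 0 ≤ b ∧ a + b = 1 ∧ a * p + b * q = 0 := by
    by_cases hpq : p = 0
    · exact ⟨1, 0, by norm_num, le_refl _, by norm_num, by rw [hpq]; ring⟩
    · have h1 : 0 < |p| + |q| := by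
        have := abs_pos.2 hpq
        have := abs_nonneg q
        linarith
      have h2 : |q| * p + |p| * q = 0 := by
        rcases le_total 0 p with h | h <;> rcases le_total 0 q with k | k
        · have : p * q = 0 := le_antisymm hcon (mul_nonneg h k)
          rcases mul_eq_zero.1 this with e | e <;> simp [e]
        · rw [abs_of_nonneg h, abs_of_nonpos k]; ring
        · rw [abs_of_nonpos h, abs_of_nonneg k]; ring
        · have : p * q = 0 := le_antisymm hcon (mul_nonneg_of_nonpos_of_nonpos h k)
          rcases mul_eq_zero.1 this with e | e <;> simp [e]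
      refine ⟨|q| / (|p| + |q|), |p| / (|p| + |q|), by positivity, by positivity, ?_, ?_⟩
      · rw [← add_div, add_comm |q| |p|, div_self h1.ne']
      · have e : |q| / (|p| + |q|) * p + |p| / (|p| + |q|) * q
            = (|q| * p + |p| * q) / (|p| + |q|) := by ring
        rw [e, h2, zero_div]
  set X : ℝ × ℝ := a • C + b • D with hX
  have hX1 : X ∈ segment ℝ C D := ⟨a, b, ha, hb, hab, rfl⟩
  have e1 : X - A = a • (C - A) + b • (D - A) := by
    rw [hX]
    have : A = (a + b) • A := by rw [hab, one_smul]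
    nth_rewrite 1 [this]
    module
  have e2 : B - X = a • (B - C) + b • (B - D) := by
    rw [hX]
    have : B = (a + b) • B := by rw [hab, one_smul]
    nth_rewrite 1 [this]
    module
  have h1 : Up (X - A) := by
    rw [e1]; exact up_comb hAC hAD ha hb (by linarith)
  have h2 : Up (B - X) := by
    rw [e2]; exact up_comb hCB hDB ha hb (by linarith)
  have h3 : det (B - A) (X - A) = 0 := by
    rw [e1, ← h0, hp, hq]
    simp only [det, Prod.fst_add, Prod.snd_add, Prod.smul_fst, Prod.smul_snd, smul_eq_mul]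
    ring
  exact Set.disjoint_left.1 hd (mem_segment_of h1 h2 h3) hX1

/-- the sign version of `crossSide` -/
lemma crossSide_aux {A B C D : ℝ × ℝ} (hd : Disjoint (segment ℝ A B) (segment ℝ C D))
    (hAC : Up (C - A)) (hCB : Up (B - C)) (hBD : Up (D - B)) (σ : ℝ) (hσ : σ ≠ 0)
    (hp : 0 ≤ σ * det (B - A) (C - A)) (hr : 0 ≤ σ * det (D - C) (B - C)) : False := by
  set p := σ * det (B - A) (C - A) with hpdef
  set r := σ * det (D - C) (B - C) with hrdef
  set q := σ * det (B - A) (D - A) with hqdef
  have rel : p • (D - B) + r • (B - A) + q • (B - C) = 0 := by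
    ext
    · simp only [hpdef, hrdef, hqdef, det, Prod.fst_add, Prod.smul_fst, smul_eq_mul, Prod.fst_sub,
        Prod.snd_sub, Prod.fst_zero]
      ring
    · simp only [hpdef, hrdef, hqdef, det, Prod.snd_add, Prod.smul_snd, smul_eq_mul, Prod.fst_sub,
        Prod.snd_sub, Prod.snd_zero]
      ring
  have hAB : Up (B - A) := by
    have := up_add hCB hAC
    rwa [sub_add_sub_cancel] at this
  have hq0 : q ≤ 0 := by
    by_contra hq
    rw [not_le] at hq
    have h1 : Up (r • (B - A) + q • (B - C)) := up_comb hAB hCB hr hq.le (by linarith)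
    have h2 : Up (p • (D - B) + r • (B - A) + q • (B - C)) := by
      rcases hp.eq_or_lt with h | h
      · rw [← h, zero_smul, zero_add]; exact h1
      · rw [add_assoc]; exact up_add (up_smul h hBD) h1
    rw [rel] at h2
    exact not_up_zero h2
  by_cases hpq : p - q = 0
  · have hp0 : p = 0 := by linarith
    have h0 : det (B - A) (C - A) = 0 := by
      rcases mul_eq_zero.1 hp0 with h | h
      · exact absurd h hσ
      · exact h
    exact Set.disjoint_left.1 hd (mem_segment_of hAC hCB h0) (left_mem_segment ℝ C D)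
  · have hpq' : 0 < p - q := lt_of_le_of_ne (by linarith) (Ne.symm hpq)
    -- the point `X = C + p / (p - q) (D - C) = B + r / (p - q) (A - B)`
    set X : ℝ × ℝ := (-q / (p - q)) • C + (p / (p - q)) • D with hX
    have hX1 : X ∈ segment ℝ C D :=
      ⟨-q / (p - q), p / (p - q), div_nonneg (by linarith) hpq'.le, div_nonneg hp hpq'.le,
        by field_simp; ring, rfl⟩
    have e1 : X = (r / (p - q)) • A + (1 - r / (p - q)) • B := by
      have h1 : (p - q) • X = (p - q) • ((r / (p - q)) • A + (1 - r / (p - q)) • B) := by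
        rw [hX]
        have e3 : (p - q) • ((-q / (p - q)) • C + (p / (p - q)) • D) = (-q) • C + p • D := by
          rw [smul_add, smul_smul, smul_smul, mul_div_cancel₀ _ hpq, mul_div_cancel₀ _ hpq]
        have e4 : (p - q) • ((r / (p - q)) • A + (1 - r / (p - q)) • B)
            = r • A + (p - q - r) • B := by
          rw [smul_add, smul_smul, smul_smul, mul_div_cancel₀ _ hpq, mul_sub, mul_one,
            mul_div_cancel₀ _ hpq]
        rw [e3, e4, ← sub_eq_zero, ← rel]
        module
      exact smul_right_injective _ hpq h1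
    have h5 : -q / (p - q) + p / (p - q) = 1 := by field_simp; ring
    have h2 : Up (X - A) := by
      have e5 : X - A = (-q / (p - q)) • (C - A) + (p / (p - q)) • (D - A) := by
        rw [hX]
        have : A = (-q / (p - q) + p / (p - q)) • A := by rw [h5, one_smul]
        nth_rewrite 1 [this]
        module
      rw [e5]
      have hAD : Up (D - A) := by
        have := up_add hBD hAB
        rwa [sub_add_sub_cancel] at this
      exact up_comb hAC hAD (div_nonneg (by linarith) hpq'.le) (div_nonneg hp hpq'.le)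
        (by linarith)
    have h3 : r / (p - q) < 1 := by
      by_contra h3
      rw [not_lt] at h3
      have e6 : X - A = -((r / (p - q) - 1) • (B - A)) := by
        rw [e1]; module
      rcases h3.eq_or_lt with h | h
      · rw [e6, ← h, sub_self, zero_smul, neg_zero] at h2
        exact not_up_zero h2
      · rw [e6] at h2
        exact not_up_neg (up_smul (by linarith : (0 : ℝ) < r / (p - q) - 1) hAB) h2
    have hX2 : X ∈ segment ℝ A B :=
      ⟨r / (p - q), 1 - r / (p - q), div_nonneg hr hpq'.le, by linarith, by ring, e1.symm⟩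
    exact Set.disjoint_left.1 hd hX2 hX1

/-- two disjoint segments with interlaced ends -/
lemma crossSide {A B C D : ℝ × ℝ} (hd : Disjoint (segment ℝ A B) (segment ℝ C D))
    (hAC : Up (C - A)) (hCB : Up (B - C)) (hBD : Up (D - B)) :
    det (B - A) (C - A) * det (D - C) (B - C) < 0 := by
  by_contra hcon
  rw [not_lt] at hcon
  rcases mul_nonneg_iff.1 hcon with ⟨h1, h2⟩ | ⟨h1, h2⟩
  · exact crossSide_aux hd hAC hCB hBD 1 one_ne_zero (by linarith) (by linarith)
  · exact crossSide_aux hd hAC hCB hBD (-1) (by norm_num) (by linarith) (by linarith)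

/-! ### The four corners in terms of orientations -/

/-- sum of the four corners -/
noncomputable def S4 (A B C D : ℝ × ℝ) : ZMod 2 :=
  hh (B - A) (D - A) + hh (C - B) (A - B) + hh (D - C) (B - C) + hh (A - D) (C - D)

lemma S4_rot (A B C D : ℝ × ℝ) : S4 A B C D = S4 B C D A := by
  unfold S4; ring

lemma hh_up {p q : ℝ × ℝ} (hp : Up p) (hq : Up q) : hh p q = if 0 < det p q then 1 else 0 := by
  unfold hh; simp [hp, hq]

lemma hh_down {p q : ℝ × ℝ} (hp : ¬ Up p) (hq : ¬ Up q) :
    hh p q = if det p q < 0 then 1 else 0 := by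
  unfold hh; simp [hp, hq]

lemma hh_mix {p q : ℝ × ℝ} (hp : Up p) (hq : ¬ Up q) : hh p q = 0 := by
  unfold hh; simp [hp, hq]

lemma hh_mix' {p q : ℝ × ℝ} (hp : ¬ Up p) (hq : Up q) : hh p q = 0 := by
  unfold hh; simp [hp, hq]

lemma down_of {X Y : ℝ × ℝ} (h : Up (Y - X)) : ¬ Up (X - Y) := by
  have := not_up_neg h
  rwa [neg_sub] at this

lemma pair_one {x y : ℝ} (h : 0 < x * y) :
    ((if 0 < x then 1 else 0 : ZMod 2)) + (if y < 0 then 1 else 0) = 1 := by
  rcases pos_and_pos_or_neg_and_neg_of_mul_pos h with ⟨h1, h2⟩ | ⟨h1, h2⟩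
  · rw [if_pos h1, if_neg (not_lt.2 h2.le), add_zero]
  · rw [if_neg (not_lt.2 h1.le), if_pos h2, zero_add]

lemma pair_zero {x y : ℝ} (h : x * y < 0) :
    ((if 0 < x then 1 else 0 : ZMod 2)) + (if y < 0 then 1 else 0) = 0 := by
  rcases mul_neg_iff.1 h with ⟨h1, h2⟩ | ⟨h1, h2⟩
  · rw [if_pos h1, if_pos h2]; decide
  · rw [if_neg (not_lt.2 h1.le), if_neg (not_lt.2 h2.le), add_zero]

/-- the statement when `A` is the lowest vertex -/
lemma quad_low {A B C D : ℝ × ℝ} (h1 : Disjoint (segment ℝ A B) (segment ℝ D C))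
    (h2 : Disjoint (segment ℝ A D) (segment ℝ B C)) (hB : Up (B - A)) (hC : Up (C - A))
    (hD : Up (D - A)) (hBC : Up (C - B) ∨ Up (B - C)) (hBD : Up (D - B) ∨ Up (B - D))
    (hCD : Up (D - C) ∨ Up (C - D)) : S4 A B C D = 1 := by
  have nB := down_of hB
  have nC := down_of hC
  have nD := down_of hD
  have h1' : Disjoint (segment ℝ A B) (segment ℝ C D) := by rw [segment_symm ℝ C D]; exact h1
  have h2' : Disjoint (segment ℝ A D) (segment ℝ C B) := by rw [segment_symm ℝ C B]; exact h2
  unfold S4
  have eA : det (D - A) (B - A) = - det (B - A) (D - A) := by unfold det; ring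
  have eB : det (B - A) (C - A) = det (C - B) (A - B) := by
    simp only [det, Prod.fst_sub, Prod.snd_sub]; ring
  have eC : det (C - B) (D - B) = det (D - C) (B - C) := by
    simp only [det, Prod.fst_sub, Prod.snd_sub]; ring
  have eC' : det (C - D) (B - D) = - det (D - C) (B - C) := by
    simp only [det, Prod.fst_sub, Prod.snd_sub]; ring
  have eC2 : det (B - C) (D - C) = - det (D - C) (B - C) := by
    simp only [det, Prod.fst_sub, Prod.snd_sub]; ring
  have eD : det (D - A) (C - A) = - det (A - D) (C - D) := by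
    simp only [det, Prod.fst_sub, Prod.snd_sub]; ring
  rcases hBC with hBC | hBC <;> rcases hBD with hBD | hBD <;> rcases hCD with hCD | hCD
  · -- A < B < C < D
    have nBC := down_of hBC
    have nCD := down_of hCD
    have k := sameSide h2 hB hBD hC hCD
    rw [eA, eD, neg_mul_neg] at k
    rw [hh_up hB hD, hh_mix hBC nB, hh_mix hCD nBC, hh_down nD nCD, add_zero, add_zero]
    exact pair_one k
  · -- A < B < D < C
    have nBC := down_of hBC
    have nCD := down_of hCD
    have k := crossSide h2 hB hBD hCD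
    rw [eA, eC, neg_mul, neg_lt_zero] at k
    rw [hh_up hB hD, hh_mix hBC nB, hh_down nCD nBC, hh_mix' nD hCD, add_zero, add_zero]
    exact pair_one k
  · -- B < C < D < B
    have := up_add (up_add hBD hCD) hBC
    rw [sub_add_sub_cancel, sub_add_sub_cancel, sub_self] at this
    exact absurd this not_up_zero
  · -- A < D < B < C
    have nBC := down_of hBC
    have nCD := down_of hCD
    have k := crossSide h1 hD hBD hBC
    rw [eC', mul_neg, neg_lt_zero] at k
    rw [hh_up hB hD, hh_mix hBC nB, hh_down nCD nBC, hh_mix' nD hCD, add_zero, add_zero]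
    exact pair_one k
  · -- A < C < B < D
    have nBC := down_of hBC
    have nCD := down_of hCD
    have k := sameSide h2 hB hBD hC hCD
    rw [eA, eD, neg_mul_neg] at k
    have l := crossSide h1' hC hBC hBD
    rw [eB, mul_comm] at l
    rw [hh_up hB hD, hh_down nBC nB, hh_up hCD hBC, hh_down nD nCD]
    have e1 := pair_one k
    have e2 := pair_zero l
    linear_combination e1 + e2
  · -- C < B < D < C
    have := up_add (up_add hCD hBD) hBC
    rw [sub_add_sub_cancel, sub_add_sub_cancel, sub_self] at this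
    exact absurd this not_up_zero
  · -- A < C < D < B
    have nBC := down_of hBC
    have nCD := down_of hCD
    have k := sameSide h1' hC hBC hD hBD
    rw [eB, mul_comm] at k
    have l := crossSide h2' hC hCD hBD
    rw [eD, eC2, neg_mul_neg, mul_comm] at l
    rw [hh_up hB hD, hh_down nBC nB, hh_up hCD hBC, hh_down nD nCD]
    have e1 := pair_one k
    have e2 := pair_zero l
    linear_combination e1 + e2
  · -- A < D < C < B
    have nBC := down_of hBC
    have nCD := down_of hCD
    have k := sameSide h1' hC hBC hD hBD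
    rw [eB, mul_comm] at k
    rw [hh_up hB hD, hh_down nBC nB, hh_mix' nCD hBC, hh_mix' nD hCD, add_zero, add_zero]
    exact pair_one k

lemma up_or {X Y : ℝ × ℝ} (h : X ≠ Y) : Up (Y - X) ∨ Up (X - Y) := by
  by_cases k : Up (Y - X)
  · exact Or.inl k
  · right
    have := up_neg_of (sub_ne_zero.2 h.symm) k
    rwa [neg_sub] at this

/-- **Module A**: the corners of a quadrilateral with disjoint opposite sides -/
theorem quad : StA := by
  intro A B C D h1 h2
  have hl : ∀ X Y : ℝ × ℝ, X ∈ segment ℝ X Y := left_mem_segment ℝ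
  have hr : ∀ X Y : ℝ × ℝ, Y ∈ segment ℝ X Y := right_mem_segment ℝ
  have nAB : A ≠ B := by
    rintro rfl; exact Set.disjoint_left.1 h2 (hl A D) (hl A C)
  have nAD : A ≠ D := by
    rintro rfl; exact Set.disjoint_left.1 h1 (hl A B) (hl A C)
  have nAC : A ≠ C := by
    rintro rfl; exact Set.disjoint_left.1 h1 (hl A B) (hr D A)
  have nBC : B ≠ C := by
    rintro rfl; exact Set.disjoint_left.1 h1 (hr A B) (hr D B)
  have nBD : B ≠ D := by
    rintro rfl; exact Set.disjoint_left.1 h1 (hr A B) (hl B C)
  have nCD : C ≠ D := by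
    rintro rfl; exact Set.disjoint_left.1 h2 (hr A C) (hr B C)
  have oAB := up_or nAB
  have oAC := up_or nAC
  have oAD := up_or nAD
  have oBC := up_or nBC
  have oBD := up_or nBD
  have oCD := up_or nCD
  -- the rotated hypotheses
  have rotate : ∀ {P Q R S : ℝ × ℝ}, Disjoint (segment ℝ P Q) (segment ℝ S R) →
      Disjoint (segment ℝ P S) (segment ℝ Q R) → Disjoint (segment ℝ Q R) (segment ℝ P S) ∧
        Disjoint (segment ℝ Q P) (segment ℝ R S) := by
    intro P Q R S k1 k2
    exact ⟨k2.symm, by rw [segment_symm ℝ Q P, segment_symm ℝ R S]; exact k1⟩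
  change S4 A B C D = 1
  have tr : ∀ {X Y Z : ℝ × ℝ}, Up (Y - X) → Up (Z - Y) → Up (Z - X) := by
    intro X Y Z k l
    have := up_add l k
    rwa [sub_add_sub_cancel] at this
  obtain ⟨m1, m2⟩ := rotate h1 h2
  obtain ⟨n1, n2⟩ := rotate m1 m2
  obtain ⟨p1, p2⟩ := rotate n1 n2
  -- the lowest vertex
  have low : (Up (B - A) ∧ Up (C - A) ∧ Up (D - A)) ∨ (Up (A - B) ∧ Up (C - B) ∧ Up (D - B)) ∨
      (Up (A - C) ∧ Up (B - C) ∧ Up (D - C)) ∨ (Up (A - D) ∧ Up (B - D) ∧ Up (C - D)) := by
    rcases oAB with ab | ab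
    · rcases oCD with cd | cd
      · rcases oAC with ac | ac
        · exact Or.inl ⟨ab, ac, tr ac cd⟩
        · exact Or.inr (Or.inr (Or.inl ⟨ac, tr ac ab, cd⟩))
      · rcases oAD with ad | ad
        · exact Or.inl ⟨ab, tr ad cd, ad⟩
        · exact Or.inr (Or.inr (Or.inr ⟨ad, tr ad ab, cd⟩))
    · rcases oCD with cd | cd
      · rcases oBC with bc | bc
        · exact Or.inr (Or.inl ⟨ab, bc, tr bc cd⟩)
        · exact Or.inr (Or.inr (Or.inl ⟨tr bc ab, bc, cd⟩))
      · rcases oBD with bd | bd
        · exact Or.inr (Or.inl ⟨ab, tr bd cd, bd⟩)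
        · exact Or.inr (Or.inr (Or.inr ⟨tr bd ab, bd, cd⟩))
  rcases low with ⟨a, b, c⟩ | ⟨a, b, c⟩ | ⟨a, b, c⟩ | ⟨a, b, c⟩
  · exact quad_low h1 h2 a b c oBC oBD oCD
  · rw [S4_rot]
    exact quad_low m1 m2 b c a oCD oAC.symm oAD.symm
  · rw [S4_rot, S4_rot]
    exact quad_low n1 n2 c a b oAD.symm oBD.symm oAB
  · rw [S4_rot, S4_rot, S4_rot]
    exact quad_low p1 p2 a b c oAB oAC oBC

end Vale.Agent.P305.H336
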